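import Vale.Agent.P323.Z.Model

/-!
# A simple syntax for the language of set theory

`Fml n` : formulas with free variables among `0, ..., n-1` (de Bruijn levels: `all φ` binds the
variable `n` of `φ : Fml (n + 1)`), with `bot`, `=`, `∈`, `→`, `∀` only.
`Fml.ofBF` translates Mathlib formulas, `sat_ofBF` says the translation keeps the meaning.
-/

namespace Vale.Agent.P323.Z

open FirstOrder FirstOrder.Language

/-- Formulas of set theory, de Bruijn levels. -/
inductive Fml : ℕ → Type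
  | bot {n : ℕ} : Fml n
  | eq {n : ℕ} (i j : Fin n) : Fml n
  | mem {n : ℕ} (i j : Fin n) : Fml n
  | imp {n : ℕ} (φ ψ : Fml n) : Fml n
  | all {n : ℕ} (φ : Fml (n + 1)) : Fml n

namespace Fml

variable {M : Type*} (E : M → M → Prop)

/-- Truth of a formula. -/
def Sat : ∀ {n : ℕ}, Fml n → (Fin n → M) → Prop
  | _, bot, _ => False
  | _, eq i j, v => v i = v j
  | _, mem i j, v => E (v i) (v j)
  | _, imp φ ψ, v => Sat φ v → Sat ψ v
  | _, all φ, v => ∀ x, Sat φ (Fin.snoc v x)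

@[simp] theorem sat_bot {n : ℕ} (v : Fin n → M) : ¬ (bot : Fml n).Sat E v := fun h => h
@[simp] theorem sat_eq {n : ℕ} (i j : Fin n) (v : Fin n → M) :
    (eq i j).Sat E v ↔ v i = v j := Iff.rfl
@[simp] theorem sat_mem {n : ℕ} (i j : Fin n) (v : Fin n → M) :
    (mem i j).Sat E v ↔ E (v i) (v j) := Iff.rfl
@[simp] theorem sat_imp {n : ℕ} (φ ψ : Fml n) (v : Fin n → M) :
    (imp φ ψ).Sat E v ↔ (φ.Sat E v → ψ.Sat E v) := Iff.rfl
@[simp] theorem sat_all {n : ℕ} (φ : Fml (n + 1)) (v : Fin n → M) :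
    (all φ).Sat E v ↔ ∀ x, φ.Sat E (Fin.snoc v x) := Iff.rfl

/-! ### Derived connectives -/

/-- negation -/
def neg {n : ℕ} (φ : Fml n) : Fml n := imp φ bot
/-- conjunction -/
def and {n : ℕ} (φ ψ : Fml n) : Fml n := neg (imp φ (neg ψ))
/-- disjunction -/
def or {n : ℕ} (φ ψ : Fml n) : Fml n := imp (neg φ) ψ
/-- equivalence -/
def iff {n : ℕ} (φ ψ : Fml n) : Fml n := and (imp φ ψ) (imp ψ φ)
/-- existential quantifier -/
def ex {n : ℕ} (φ : Fml (n + 1)) : Fml n := neg (all (neg φ))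

@[simp] theorem sat_neg {n : ℕ} (φ : Fml n) (v : Fin n → M) :
    (neg φ).Sat E v ↔ ¬ φ.Sat E v := Iff.rfl
@[simp] theorem sat_and {n : ℕ} (φ ψ : Fml n) (v : Fin n → M) :
    (and φ ψ).Sat E v ↔ (φ.Sat E v ∧ ψ.Sat E v) := by
  simp [and]
@[simp] theorem sat_or {n : ℕ} (φ ψ : Fml n) (v : Fin n → M) :
    (or φ ψ).Sat E v ↔ (φ.Sat E v ∨ ψ.Sat E v) := by
  simp only [or, sat_imp, sat_neg]; tauto
@[simp] theorem sat_iff {n : ℕ} (φ ψ : Fml n) (v : Fin n → M) :
    (iff φ ψ).Sat E v ↔ (φ.Sat E v ↔ ψ.Sat E v) := by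
  simp only [iff, sat_and, sat_imp]; tauto
@[simp] theorem sat_ex {n : ℕ} (φ : Fml (n + 1)) (v : Fin n → M) :
    (ex φ).Sat E v ↔ ∃ x, φ.Sat E (Fin.snoc v x) := by
  simp [ex]

/-! ### Renaming of variables -/

/-- Extend a renaming below a quantifier. -/
def liftR {n m : ℕ} (r : Fin n → Fin m) : Fin (n + 1) → Fin (m + 1) :=
  Fin.snoc (fun i => (r i).castSucc) (Fin.last m)

@[simp] theorem liftR_castSucc {n m : ℕ} (r : Fin n → Fin m) (i : Fin n) :
    liftR r i.castSucc = (r i).castSucc := by simp [liftR]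

@[simp] theorem liftR_last {n m : ℕ} (r : Fin n → Fin m) :
    liftR r (Fin.last n) = Fin.last m := by simp [liftR]

theorem snoc_comp_liftR {n m : ℕ} (r : Fin n → Fin m) (v : Fin m → M) (x : M) :
    (Fin.snoc v x : Fin (m + 1) → M) ∘ liftR r = Fin.snoc (v ∘ r) x := by
  funext i
  refine Fin.lastCases ?_ (fun j => ?_) i
  · simp
  · simp

/-- Renaming of the free variables. -/
def rename : ∀ {n m : ℕ}, (Fin n → Fin m) → Fml n → Fml m
  | _, _, _, bot => bot
  | _, _, r, eq i j => eq (r i) (r j)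
  | _, _, r, mem i j => mem (r i) (r j)
  | _, _, r, imp φ ψ => imp (rename r φ) (rename r ψ)
  | _, _, r, all φ => all (rename (liftR r) φ)

theorem sat_rename : ∀ {n : ℕ} (φ : Fml n) {m : ℕ} (r : Fin n → Fin m) (v : Fin m → M),
    (rename r φ).Sat E v ↔ φ.Sat E (v ∘ r)
  | _, bot, _, _, _ => Iff.rfl
  | _, eq _ _, _, _, _ => Iff.rfl
  | _, mem _ _, _, _, _ => Iff.rfl
  | _, imp φ ψ, _, r, v => imp_congr (sat_rename φ r v) (sat_rename ψ r v)
  | _, all φ, _, r, v => by
    show (∀ x, (rename (liftR r) φ).Sat E (Fin.snoc v x)) ↔ ∀ x, φ.Sat E (Fin.snoc (v ∘ r) x)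
    refine forall_congr' fun x => ?_
    rw [sat_rename φ (liftR r), snoc_comp_liftR]

/-! ### Translation of Mathlib formulas -/

/-- Every term of the language of set theory is a variable. -/
def varOf {n : ℕ} : LSet.Term (Empty ⊕ Fin n) → Fin n
  | .var (.inr i) => i
  | .var (.inl e) => e.elim
  | .func f _ => (f : Empty).elim

/-- The atomic formula of a relation symbol. -/
def ofRel {n : ℕ} : ∀ {l : ℕ}, MemSymb l → (Fin l → Fin n) → Fml n
  | _, .mem, t => mem (t 0) (t 1)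

/-- The translation. -/
def ofBF : ∀ {n : ℕ}, LSet.BoundedFormula Empty n → Fml n
  | _, .falsum => bot
  | _, .equal t₁ t₂ => eq (varOf t₁) (varOf t₂)
  | _, .rel R ts => ofRel R (fun i => varOf (ts i))
  | _, .imp φ ψ => imp (ofBF φ) (ofBF ψ)
  | _, .all φ => all (ofBF φ)

theorem realize_eq_varOf {n : ℕ} (t : LSet.Term (Empty ⊕ Fin n)) (v : Fin n → M) :
    @Term.realize LSet M (memStructure E) _ (Sum.elim (Empty.elim : Empty → M) v) t
      = v (varOf t) := by
  match t with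
  | .var (.inr i) => rfl
  | .var (.inl e) => exact e.elim
  | .func f _ => exact (f : Empty).elim

/-- The translation keeps the meaning. -/
theorem sat_ofBF : ∀ {n : ℕ} (φ : LSet.BoundedFormula Empty n) (v : Fin n → M),
    (ofBF φ).Sat E v ↔ Z.Sat E φ v := by
  intro n φ
  induction φ with
  | falsum => intro v; exact Iff.rfl
  | equal t₁ t₂ =>
    intro v
    have h₁ := realize_eq_varOf E t₁ v
    have h₂ := realize_eq_varOf E t₂ v
    show v (varOf t₁) = v (varOf t₂) ↔ _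
    rw [← h₁, ← h₂]
    exact Iff.rfl
  | rel R ts =>
    intro v
    cases R with
    | mem =>
      have h₁ := realize_eq_varOf E (ts 0) v
      have h₂ := realize_eq_varOf E (ts 1) v
      show E (v (varOf (ts 0))) (v (varOf (ts 1))) ↔ _
      rw [← h₁, ← h₂]
      exact Iff.rfl
  | imp φ ψ ih₁ ih₂ =>
    intro v
    exact imp_congr (ih₁ v) (ih₂ v)
  | all φ ih =>
    intro v
    exact forall_congr' fun x => ih _

end Fml

end Vale.Agent.P323.Z
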