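import Mathlib

/-!
# Interface between the forcing side (F) and the combinatorial side (P)
`NameTheory C`: located names over a category of conditions with forced equality and membership.
The F-team constructs an instance for every `C`; the P-team proves `PPForced` and `NoAC` for the
coloured category from this interface only.
-/

namespace Vale.Agent.P323.Z

open CategoryTheory

universe u

class NameTheory (C : Type u) [Category.{u} C] where
  N : C → Type (u + 1)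
  mv : ∀ {X Y : C}, (X ⟶ Y) → N X → N Y
  mv_id : ∀ {X : C} (σ : N X), mv (𝟙 X) σ = σ
  mv_mv : ∀ {X Y Z : C} (k : X ⟶ Y) (l : Y ⟶ Z) (σ : N X), mv l (mv k σ) = mv (k ≫ l) σ
  feq : ∀ {X : C}, N X → N X → Prop
  fmem : ∀ {X : C}, N X → N X → Prop
  feq_refl : ∀ {X : C} (σ : N X), feq σ σ
  feq_symm : ∀ {X : C} {σ τ : N X}, feq σ τ → feq τ σ
  feq_trans : ∀ {X : C} {σ τ ρ : N X}, feq σ τ → feq τ ρ → feq σ ρ
  feq_mv : ∀ {X Y : C} (k : X ⟶ Y) {σ τ : N X}, feq σ τ → feq (mv k σ) (mv k τ)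
  feq_loc : ∀ {X : C} {σ τ : N X},
    (∀ {Y : C} (k : X ⟶ Y), ∃ (Z : C) (l : Y ⟶ Z), feq (mv (k ≫ l) σ) (mv (k ≫ l) τ)) → feq σ τ
  fmem_congr : ∀ {X : C} {σ σ' τ τ' : N X}, feq σ σ' → feq τ τ' → fmem σ τ → fmem σ' τ'
  fmem_mv : ∀ {X Y : C} (k : X ⟶ Y) {σ τ : N X}, fmem σ τ → fmem (mv k σ) (mv k τ)
  fmem_loc : ∀ {X : C} {σ τ : N X},
    (∀ {Y : C} (k : X ⟶ Y), ∃ (Z : C) (l : Y ⟶ Z), fmem (mv (k ≫ l) σ) (mv (k ≫ l) τ)) → fmem σ τ
  /-- Kuratowski pairs -/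
  op : ∀ {X : C}, N X → N X → N X
  op_mv : ∀ {X Y : C} (k : X ⟶ Y) (σ τ : N X), feq (mv k (op σ τ)) (op (mv k σ) (mv k τ))
  op_feq : ∀ {X : C} {σ τ σ' τ' : N X}, feq (op σ τ) (op σ' τ') ↔ feq σ σ' ∧ feq τ τ'
  /-- entries of a name at `X` -/
  Ent : ∀ {X : C}, N X → Type u
  ent : ∀ {X : C} (τ : N X), Ent τ → N X
  ent_mem : ∀ {X : C} (τ : N X) (e : Ent τ), fmem (ent τ e) τ
  mem_ent : ∀ {X : C} {σ τ : N X}, fmem σ τ →
    ∃ (Y : C) (k : X ⟶ Y) (e : Ent (mv k τ)), feq (mv k σ) (ent (mv k τ) e)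
  /-- names with prescribed entries -/
  mkN : ∀ (X : C) {I : Type u} (Z : I → C) (_ : ∀ i, X ⟶ Z i) (_ : ∀ i, N (Z i)), N X
  fmem_mkN : ∀ (X : C) {I : Type u} (Z : I → C) (u : ∀ i, X ⟶ Z i) (e : ∀ i, N (Z i))
    {W : C} (v : X ⟶ W) (ρ : N W),
    fmem ρ (mv v (mkN X Z u e)) ↔ ∀ {W' : C} (k : W ⟶ W'), ∃ (W'' : C) (h : W' ⟶ W'') (i : I)
      (w : Z i ⟶ W''), v ≫ k ≫ h = u i ≫ w ∧ feq (mv (k ≫ h) ρ) (mv w (e i))
  /-- extensionality -/
  feq_ext : ∀ {X : C} {σ τ : N X},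
    (∀ {Y : C} (k : X ⟶ Y) (ρ : N Y), fmem ρ (mv k σ) ↔ fmem ρ (mv k τ)) → feq σ τ
  /-- pairwise distinct standard names -/
  ck : ∀ (_ : Ordinal.{u}) (X : C), N X
  ck_mv : ∀ (o : Ordinal.{u}) {X Y : C} (k : X ⟶ Y), feq (mv k (ck o X)) (ck o Y)
  ck_ne : ∀ {o o' : Ordinal.{u}} {X : C}, feq (ck o X) (ck o' X) → o = o'

open NameTheory

section

variable {C : Type u} [Category.{u} C] [NameTheory C]

/-- `F` is (forced to be) a function from `A` to `B`; everything at condition `X` -/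
structure FFun {X : C} (F A B : N X) : Prop where
  sub : ∀ {W : C} (v : X ⟶ W) (p : N W), fmem p (mv v F) →
    ∃ (W' : C) (k : W ⟶ W') (x y : N W'), fmem x (mv (v ≫ k) A) ∧
      fmem y (mv (v ≫ k) B) ∧ feq (mv k p) (op x y)
  func : ∀ {W : C} (v : X ⟶ W) (x y y' : N W), fmem (op x y) (mv v F) →
    fmem (op x y') (mv v F) → feq y y'
  total : ∀ {W : C} (v : X ⟶ W) (x : N W), fmem x (mv v A) →
    ∃ (W' : C) (k : W ⟶ W') (y : N W'), fmem (op (mv k x) y) (mv (v ≫ k) F)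

/-- `F` is (forced to be) onto `B` -/
def FOnto {X : C} (F B : N X) : Prop :=
  ∀ {W : C} (v : X ⟶ W) (y : N W), fmem y (mv v B) →
    ∃ (W' : C) (k : W ⟶ W') (x : N W'), fmem (op x (mv k y)) (mv (v ≫ k) F)

/-- `F` is (forced to be) injective -/
def FInj {X : C} (F : N X) : Prop :=
  ∀ {W : C} (v : X ⟶ W) (x x' y : N W), fmem (op x y) (mv v F) →
    fmem (op x' y) (mv v F) → feq x x'

/-- `K` is (forced to be) a choice function on `A` -/
def FChoice {X : C} (K A : N X) : Prop :=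
  (∀ {W : C} (v : X ⟶ W) (x y y' : N W), fmem (op x y) (mv v K) →
    fmem (op x y') (mv v K) → feq y y') ∧
  (∀ {W : C} (v : X ⟶ W) (x : N W), fmem x (mv v A) →
    ∃ (W' : C) (k : W ⟶ W') (y : N W'), fmem (op (mv k x) y) (mv (v ≫ k) K) ∧
      fmem y (mv k x))

end

/-- PP is forced by every condition (it suffices to find the injection at an extension). -/
def PPForced (C : Type u) [Category.{u} C] [NameTheory C] : Prop :=
  ∀ (X : C) (F A B : N X), FFun F A B → FOnto F B →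
    ∃ (Y : C) (k : X ⟶ Y) (J : N Y), FFun J (mv k B) (mv k A) ∧ FInj J

/-- No condition forces AC: every condition has an extension with a family `A` of nonempty sets
such that no stronger condition has a choice function for `A`. -/
def NoAC (C : Type u) [Category.{u} C] [NameTheory C] : Prop :=
  ∀ X : C, ∃ (Y : C) (_ : X ⟶ Y) (A : N Y),
    (∀ {W : C} (v : Y ⟶ W) (x : N W), fmem x (mv v A) →
      ∃ (W' : C) (k : W ⟶ W') (y : N W'), fmem y (mv k x)) ∧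
    ∀ {W : C} (v : Y ⟶ W) (K : N W), ¬ FChoice K (mv v A)

end Vale.Agent.P323.Z
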