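import Vale.Agent.P323.Z.Fml

/-!
# PP and AC as sentences; a weak axiomatization of ZF

* `Fml.ppF`, `Fml.acF : Fml 0` with `sat_ppF`, `sat_acF`;
* `WeakZF E` : weak forms of the axioms, with Separation and Collection for `Fml`;
  `WeakZF.isZFModel : WeakZF E → IsZFModel E`.
-/

namespace Vale.Agent.P323.Z

namespace Fml

variable {M : Type*} (E : M → M → Prop)

/-- `last n` as a variable of `Fml (n + 1)`. -/
abbrev la {n : ℕ} : Fin (n + 1) := Fin.last n
/-- an old variable below one new quantifier -/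
abbrev up {n : ℕ} (i : Fin n) : Fin (n + 1) := Fin.castSucc i

/-- `p = {x, y}` -/
def upairF {n : ℕ} (p x y : Fin n) : Fml n :=
  all (iff (mem la (up p)) (or (eq la (up x)) (eq la (up y))))

@[simp] theorem sat_upairF {n : ℕ} (p x y : Fin n) (v : Fin n → M) :
    (upairF p x y).Sat E v ↔ IsUPair E (v p) (v x) (v y) := by
  simp [upairF, IsUPair]

/-- `p = (x, y)` -/
def opairF {n : ℕ} (p x y : Fin n) : Fml n :=
  ex (ex (and (upairF (up la) (up (up x)) (up (up x)))
    (and (upairF la (up (up x)) (up (up y))) (upairF (up (up p)) (up la) la))))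

@[simp] theorem sat_opairF {n : ℕ} (p x y : Fin n) (v : Fin n → M) :
    (opairF p x y).Sat E v ↔ IsOPair E (v p) (v x) (v y) := by
  simp [opairF, IsOPair]

/-- `(x, y) ∈ f` -/
def pairMemF {n : ℕ} (x y f : Fin n) : Fml n :=
  ex (and (opairF la (up x) (up y)) (mem la (up f)))

@[simp] theorem sat_pairMemF {n : ℕ} (x y f : Fin n) (v : Fin n → M) :
    (pairMemF x y f).Sat E v ↔ PairMem E (v x) (v y) (v f) := by
  simp [pairMemF, PairMem]

/-- `f` is a function from `X` to `Y` -/
def functionF {n : ℕ} (f X Y : Fin n) : Fml n :=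
  and
    (all (imp (mem la (up f))
      (ex (ex (and (mem (up la) (up (up (up X))))
        (and (mem la (up (up (up Y)))) (opairF (up (up la)) (up la) la)))))))
    (all (imp (mem la (up X))
      (ex (and (pairMemF (up la) la (up (up f)))
        (all (imp (pairMemF (up (up la)) la (up (up (up f)))) (eq la (up la))))))))

@[simp] theorem sat_functionF {n : ℕ} (f X Y : Fin n) (v : Fin n → M) :
    (functionF f X Y).Sat E v ↔ IsFunction E (v f) (v X) (v Y) := by
  constructor
  · intro h
    simp only [functionF, sat_and, sat_all, sat_imp, sat_mem, sat_ex, sat_opairF, sat_pairMemF,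
      sat_eq, Fin.snoc_castSucc, Fin.snoc_last] at h
    exact ⟨h.1, fun x hx => h.2 x hx⟩
  · intro h
    simp only [functionF, sat_and, sat_all, sat_imp, sat_mem, sat_ex, sat_opairF, sat_pairMemF,
      sat_eq, Fin.snoc_castSucc, Fin.snoc_last]
    exact ⟨h.1, fun x hx => h.2 x hx⟩

/-- `f` is a surjection from `X` onto `Y` -/
def surjectionF {n : ℕ} (f X Y : Fin n) : Fml n :=
  and (functionF f X Y)
    (all (imp (mem la (up Y)) (ex (and (mem la (up (up X))) (pairMemF la (up la) (up (up f)))))))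

@[simp] theorem sat_surjectionF {n : ℕ} (f X Y : Fin n) (v : Fin n → M) :
    (surjectionF f X Y).Sat E v ↔ IsSurjection E (v f) (v X) (v Y) := by
  simp [surjectionF, IsSurjection]

/-- `f` is an injection from `X` into `Y` -/
def injectionF {n : ℕ} (f X Y : Fin n) : Fml n :=
  and (functionF f X Y)
    (all (all (all (imp (pairMemF (up (up la)) la (up (up (up f))))
      (imp (pairMemF (up la) la (up (up (up f)))) (eq (up (up la)) (up la)))))))

@[simp] theorem sat_injectionF {n : ℕ} (f X Y : Fin n) (v : Fin n → M) :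
    (injectionF f X Y).Sat E v ↔ IsInjection E (v f) (v X) (v Y) := by
  simp [injectionF, IsInjection]

/-- The Partition Principle. -/
def ppF : Fml 0 :=
  all (all (imp (ex (surjectionF la (up (up la)) (up la)))
    (ex (injectionF la (up la) (up (up la))))))

@[simp] theorem sat_ppF (v : Fin 0 → M) : ppF.Sat E v ↔ PP E := by
  simp only [ppF, PP, sat_all, sat_imp, sat_ex, sat_surjectionF, sat_injectionF,
    Fin.snoc_castSucc, Fin.snoc_last]

/-- The Axiom of Choice. -/
def acF : Fml 0 :=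
  all (imp (all (imp (mem la (up la)) (ex (mem la (up la)))))
    (ex (ex (and (functionF (up la) (up (up la)) la)
      (all (all (imp (pairMemF (up la) la (up (up (up la)))) (mem la (up la)))))))))

@[simp] theorem sat_acF (v : Fin 0 → M) : acF.Sat E v ↔ AC E := by
  simp only [acF, AC, sat_all, sat_imp, sat_ex, sat_and, sat_mem, sat_functionF, sat_pairMemF,
    Fin.snoc_castSucc, Fin.snoc_last]

end Fml

/-! ## Weak axioms -/

/-- Weak forms of the axioms of ZF, with Separation and Collection for `Fml`. -/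
structure WeakZF {M : Type*} (E : M → M → Prop) : Prop where
  extensionality : ∀ x y, (∀ z, E z x ↔ E z y) → x = y
  foundation : ∀ x, (∃ y, E y x) → ∃ y, E y x ∧ ∀ z, E z x → ¬ E z y
  pairing : ∀ x y, ∃ p, E x p ∧ E y p
  union : ∀ x, ∃ u, ∀ y z, E y x → E z y → E z u
  powerSet : ∀ x, ∃ p, ∀ z, (∀ w, E w z → E w x) → E z p
  infinity : ∃ w, (∃ e, E e w ∧ ∀ z, ¬ E z e) ∧
    ∀ x, E x w → ∃ s, E s w ∧ ∀ z, E z s ↔ E z x ∨ z = x
  separation : ∀ (n : ℕ) (φ : Fml (n + 1)) (v : Fin n → M) (a : M),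
    ∃ b, ∀ x, E x b ↔ E x a ∧ φ.Sat E (Fin.snoc v x)
  collection : ∀ (n : ℕ) (φ : Fml (n + 2)) (v : Fin n → M) (a : M),
    (∀ x, E x a → ∃ y, φ.Sat E (Fin.snoc (Fin.snoc v x : Fin (n + 1) → M) y)) →
    ∃ b, ∀ x, E x a → ∃ y, E y b ∧ φ.Sat E (Fin.snoc (Fin.snoc v x : Fin (n + 1) → M) y)

namespace WeakZF

open Fml

variable {M : Type*} {E : M → M → Prop}

theorem isZFModel (h : WeakZF E) : IsZFModel E where
  extensionality := h.extensionality
  foundation := h.foundation
  pairing := by
    intro x y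
    obtain ⟨p, hx, hy⟩ := h.pairing x y
    obtain ⟨b, hb⟩ := h.separation 2 (Fml.or (eq 2 0) (eq 2 1)) ![x, y] p
    refine ⟨b, fun z => ?_⟩
    rw [hb z]
    have e0 : (Fin.snoc (α := fun _ => M) ![x, y] z : Fin 3 → M) 0 = x := rfl
    have e1 : (Fin.snoc (α := fun _ => M) ![x, y] z : Fin 3 → M) 1 = y := rfl
    have e2 : (Fin.snoc (α := fun _ => M) ![x, y] z : Fin 3 → M) 2 = z := rfl
    simp only [sat_or, sat_eq, e0, e1, e2]
    constructor
    · exact fun hh => hh.2
    · intro hh
      refine ⟨?_, hh⟩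
      rcases hh with rfl | rfl
      · exact hx
      · exact hy
  union := by
    intro x
    obtain ⟨u, hu⟩ := h.union x
    obtain ⟨b, hb⟩ := h.separation 1 (Fml.ex (Fml.and (mem 2 0) (mem 1 2))) ![x] u
    refine ⟨b, fun z => ?_⟩
    rw [hb z]
    have key : (Fml.ex (Fml.and (mem 2 0) (mem 1 2)) : Fml 2).Sat E (Fin.snoc ![x] z) ↔
        ∃ y, E y x ∧ E z y := by
      simp only [sat_ex, sat_and, sat_mem]
      exact Iff.rfl
    rw [key]
    constructor
    · exact fun hh => hh.2
    · intro hh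
      refine ⟨?_, hh⟩
      obtain ⟨y, hy, hz⟩ := hh
      exact hu y z hy hz
  powerSet := by
    intro x
    obtain ⟨p, hp⟩ := h.powerSet x
    obtain ⟨b, hb⟩ := h.separation 1 (Fml.all (Fml.imp (mem 2 1) (mem 2 0))) ![x] p
    refine ⟨b, fun z => ?_⟩
    rw [hb z]
    have key : (Fml.all (Fml.imp (mem 2 1) (mem 2 0)) : Fml 2).Sat E (Fin.snoc ![x] z) ↔
        ∀ w, E w z → E w x := by
      simp only [sat_all, sat_imp, sat_mem]
      exact Iff.rfl
    rw [key]
    exact ⟨fun hh => hh.2, fun hh => ⟨hp z hh, hh⟩⟩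
  infinity := h.infinity
  separation := by
    intro n φ v a
    obtain ⟨b, hb⟩ := h.separation n (ofBF φ) v a
    exact ⟨b, fun x => by rw [hb x, sat_ofBF]⟩
  replacement := by
    intro n φ v a hφ
    obtain ⟨b, hb⟩ := h.collection n (ofBF φ) v a (fun x hx => by
      obtain ⟨y, hy, _⟩ := hφ x hx
      exact ⟨y, (sat_ofBF E φ _).2 hy⟩)
    -- cut `b` down by Separation; parameters: `v` and `a`, then `y`, then the bound variable `x`
    let r : Fin (n + 2) → Fin (n + 3) :=
      Fin.snoc (α := fun _ => Fin (n + 3)) (Fin.snoc (α := fun _ => Fin (n + 3))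
        (fun i : Fin n => up (up (up i))) la) (up la)
    let ψ : Fml (n + 2) := Fml.ex (Fml.and (mem la (up (up la))) (rename r (ofBF φ)))
    obtain ⟨d, hd⟩ := h.separation (n + 1) ψ (Fin.snoc v a) b
    have key : ∀ y, ψ.Sat E (Fin.snoc (Fin.snoc v a : Fin (n + 1) → M) y) ↔
        ∃ x, E x a ∧ Z.Sat E φ (Fin.snoc (Fin.snoc v x : Fin (n + 1) → M) y) := by
      intro y
      simp only [ψ, sat_ex, sat_and, sat_mem, Fin.snoc_last, Fin.snoc_castSucc]
      refine exists_congr fun x => and_congr_right fun _ => ?_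
      rw [sat_rename, ← sat_ofBF]
      have : (Fin.snoc (Fin.snoc (Fin.snoc v a : Fin (n + 1) → M) y : Fin (n + 2) → M) x :
          Fin (n + 3) → M) ∘ r = Fin.snoc (Fin.snoc v x : Fin (n + 1) → M) y := by
        funext i
        refine Fin.lastCases ?_ (fun j => ?_) i
        · simp [r]
        · refine Fin.lastCases ?_ (fun k => ?_) j
          · simp [r]
          · simp [r]
      rw [this]
    refine ⟨d, fun y => ?_⟩
    rw [hd y, key y]
    refine ⟨fun hh => hh.2, fun hh => ⟨?_, hh⟩⟩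
    obtain ⟨x, hx, hy⟩ := hh
    obtain ⟨y', hy', hφ'⟩ := hb x hx
    obtain ⟨y₀, _, hu⟩ := hφ x hx
    rw [sat_ofBF] at hφ'
    rw [hu y hy, ← hu y' hφ']
    exact hy'

end WeakZF

end Vale.Agent.P323.Z
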