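import Vale.Agent.P323.Z.Basic

/-!
# Typed contract between the one-step construction (sections 1-4) and the transfinite tower
`IsStage`, typed pseudogroups `SPG`, typed tasks `STask`, new-morphism data `SND`, and `Step`:
everything the successor step has to provide, stated for a functor `Φ : S ⥤ T` only.
Goal of A1-A3: `∀ S a ι, IsStage S a ι → Nonempty (Step S a ι)` (in universe 0, generic is fine).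
-/

namespace Vale.Agent.P323.Z

open CategoryTheory

universe u

/-- The stage axioms. -/
structure IsStage (S : Type u) [Category.{u} S] (a : ℕ → S) (ι : ∀ n, a n ⟶ a (n + 1)) :
    Prop where
  mono : ∀ {x y : S} (f : x ⟶ y), Mono f
  pb : ∀ {x y b : S} (f : x ⟶ b) (g : y ⟶ b), ∃ (z : S) (p : z ⟶ x) (q : z ⟶ y), IsPB p q f g
  ι_not : ∀ n, ¬ Thru (𝟙 (a (n + 1))) (ι n)
  from_a0 : ∀ x : S, Nonempty (a 0 ⟶ x)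

/-- Typed pseudogroups. -/
structure SPG (S : Type u) [Category.{u} S] (b : S) where
  rel : ∀ {d : S}, (d ⟶ b) → (d ⟶ b) → Prop
  one : rel (𝟙 b) (𝟙 b)
  symm : ∀ {d : S} {s t : d ⟶ b}, rel s t → rel t s
  comp : ∀ {d d' e : S} {s t : d ⟶ b} {s' t' : d' ⟶ b} {g : e ⟶ d} {g' : e ⟶ d'},
    rel s t → rel s' t' → IsPB g g' t s' → rel (g ≫ s) (g' ≫ t')
  up : ∀ {d e : S} {s t : d ⟶ b} {g : e ⟶ d}, rel (g ≫ s) (g ≫ t) → rel s t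

/-- Typed tasks. -/
structure STask (S : Type u) [Category.{u} S] (a : ℕ → S) (ι : ∀ n, a n ⟶ a (n + 1)) where
  n : ℕ
  c : S
  α : a n ⟶ c
  b : S
  E : SPG S b
  γ : a (n + 1) ⟶ b
  inv : ∀ {d : S} {s t : d ⟶ b}, E.rel s t → ∃ v : a (n + 1) ⟶ d, v ≫ s = γ ∧ v ≫ t = γ

section

variable {S T : Type u} [Category.{u} S] [Category.{u} T]

/-- The data attached to a new morphism `x : Φ.obj d ⟶ Φ.obj b`. -/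
structure SND (Φ : S ⥤ T) (a : ℕ → S) (ι : ∀ n, a n ⟶ a (n + 1)) {d b : S}
    (x : Φ.obj d ⟶ Φ.obj b) where
  n : ℕ
  A : a (n + 1) ⟶ b
  P : S
  π : P ⟶ d
  π' : P ⟶ a n
  eq : Φ.map π ≫ x = Φ.map (π' ≫ ι n ≫ A)
  N0 : ∀ {e : S} (u : Φ.obj e ⟶ Φ.obj d) (y : e ⟶ b), u ≫ x = Φ.map y → Thru u (Φ.map π)
  N1 : ∀ {e : S} (y : e ⟶ b), (Thru A y ∧ Thru x (Φ.map y)) ∨
    ∀ {f : T} (u : f ⟶ Φ.obj d) (v : f ⟶ Φ.obj e), u ≫ x = v ≫ Φ.map y → Thru u (Φ.map π)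
  N2 : ¬ Thru (𝟙 d) π

end

/-- One step of the tower. -/
structure Step (S : Type u) [Category.{u} S] (a : ℕ → S) (ι : ∀ n, a n ⟶ a (n + 1)) where
  T : Type u
  [cat : Category.{u} T]
  Φ : S ⥤ T
  inj : Function.Injective Φ.obj
  faithful : ∀ {x y : S} {f g : x ⟶ y}, Φ.map f = Φ.map g → f = g
  pb : ∀ {z x y b : S} {p : z ⟶ x} {q : z ⟶ y} {f : x ⟶ b} {g : y ⟶ b}, IsPB p q f g →
    IsPB (Φ.map p) (Φ.map q) (Φ.map f) (Φ.map g)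
  div : ∀ {x y z : S} (u : Φ.obj x ⟶ Φ.obj y) (g : y ⟶ z) (h : x ⟶ z),
    u ≫ Φ.map g = Φ.map h → ∃ k, Φ.map k = u
  stage : IsStage T (fun n => Φ.obj (a n)) (fun n => Φ.map (ι n))
  /-- a morphism with old target has old source -/
  src : ∀ {d : T} {b : S}, (d ⟶ Φ.obj b) → ∃ e, Φ.obj e = d
  nd : ∀ {d b : S} (x : Φ.obj d ⟶ Φ.obj b), (∃ y, Φ.map y = x) ∨ Nonempty (SND Φ a ι x)
  gen : ∀ τ : STask S a ι, Φ.obj τ.c ⟶ Φ.obj τ.b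
  gen_α : ∀ τ : STask S a ι, Φ.map τ.α ≫ gen τ = Φ.map (ι τ.n ≫ τ.γ)
  gen_inv : ∀ (τ : STask S a ι) {d : S} {s t : d ⟶ τ.b}, τ.E.rel s t →
    ∃ v : Φ.obj τ.c ⟶ Φ.obj d, v ≫ Φ.map s = gen τ ∧ v ≫ Φ.map t = gen τ
  G1 : ∀ (τ : STask S a ι) {B : S} (A : B ⟶ τ.b), τ.E.rel A A →
    ∀ (fA : Φ.obj τ.c ⟶ Φ.obj B) (γA : a (τ.n + 1) ⟶ B), fA ≫ Φ.map A = gen τ → γA ≫ A = τ.γ →
    ∀ {b' e : S} (y : B ⟶ b') (y' : e ⟶ b') {f : T} (t : f ⟶ Φ.obj τ.c) (s : f ⟶ Φ.obj e),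
      t ≫ fA ≫ Φ.map y = s ≫ Φ.map y' → Thru t (Φ.map τ.α) ∨ Thru (γA ≫ y) y'
  G3 : ∀ (τ : STask S a ι) {d : S} (p : Φ.obj d ⟶ Φ.obj τ.b) (N : SND Φ a ι p)
    (h : Φ.obj (a (τ.n + 1)) ⟶ Φ.obj d), h ≫ p = Φ.map τ.γ →
    ∀ {f : T} (g : f ⟶ Φ.obj d) (s : f ⟶ Φ.obj τ.c), g ≫ p = s ≫ gen τ →
      Thru g (Φ.map N.π) ∨ Thru s (Φ.map τ.α)
  G4 : ∀ (τ : STask S a ι) {d : S} (p : d ⟶ τ.b),
    (∃ (B : S) (A : B ⟶ τ.b) (u : B ⟶ d), τ.E.rel A (u ≫ p)) ∨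
    ∀ {f : T} (g : f ⟶ Φ.obj d) (s : f ⟶ Φ.obj τ.c), g ≫ Φ.map p = s ≫ gen τ →
      Thru s (Φ.map τ.α)
  G5 : ∀ (τ : STask S a ι) {B B' d : S} (A : B ⟶ τ.b) (A' : B' ⟶ τ.b),
    τ.E.rel A A → τ.E.rel A' A' →
    ∀ (fA : Φ.obj τ.c ⟶ Φ.obj B) (fA' : Φ.obj τ.c ⟶ Φ.obj B'), fA ≫ Φ.map A = gen τ →
      fA' ≫ Φ.map A' = gen τ →
    ∀ (u : B ⟶ d) (u' : B' ⟶ d) {f : T} (s t : f ⟶ Φ.obj τ.c),
      s ≫ fA ≫ Φ.map u = t ≫ fA' ≫ Φ.map u' →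
      Thru s (Φ.map τ.α) ∨ Thru t (Φ.map τ.α) ∨
        (s = t ∧ ∃ (K : S) (x : K ⟶ B) (y : K ⟶ B'),
          τ.E.rel (x ≫ A) (y ≫ A') ∧ x ≫ u = y ≫ u')
  G6 : ∀ (τ : STask S a ι) {f : S} (s : Φ.obj f ⟶ Φ.obj τ.c) (y : f ⟶ τ.b),
    s ≫ gen τ = Φ.map y → Thru s (Φ.map τ.α)
  am : ∀ {z x y : S} (_ : z ⟶ x) (_ : z ⟶ y), T
  jl : ∀ {z x y : S} (l : z ⟶ x) (r : z ⟶ y), Φ.obj x ⟶ am l r
  jr : ∀ {z x y : S} (l : z ⟶ x) (r : z ⟶ y), Φ.obj y ⟶ am l r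
  K1 : ∀ {z x y : S} (l : z ⟶ x) (r : z ⟶ y), IsPB (Φ.map l) (Φ.map r) (jl l r) (jr l r)
  K2 : ∀ {z x y z' x' y' : S} (l : z ⟶ x) (r : z ⟶ y) (l' : z' ⟶ x') (r' : z' ⟶ y')
    (p : x' ⟶ x) (m : z' ⟶ z) (q : y' ⟶ y), IsPB l' m p l → IsPB r' m q r →
    ∃ φ : am l' r' ⟶ am l r,
      IsPB (jl l' r') (Φ.map p) φ (jl l r) ∧ IsPB (jr l' r') (Φ.map q) φ (jr l r)

end Vale.Agent.P323.Z
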