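import Vale.Agent.P323.Z.Basic

/-!
# The interface `Tw`: a category with a filtration indexed by the small ordinals
Composition is written in Mathlib order, so `f ≫ g` is `g` after `f`.
`Mem i f`: the morphism `f` belongs to stage `i`.
-/

namespace Vale.Agent.P323.Z

open CategoryTheory

/-- A category with all morphisms mono, a filtration by stages, and the chain `a n`. -/
class TwBase (D : Type 1) [Category.{1} D] where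
  Mem : Ordinal.{0} → ∀ {x y : D}, (x ⟶ y) → Prop
  mono : ∀ {x y : D} (f : x ⟶ y), Mono f
  mem_src : ∀ {i : Ordinal.{0}} {x y : D} {f : x ⟶ y}, Mem i f → Mem i (𝟙 x)
  mem_tgt : ∀ {i : Ordinal.{0}} {x y : D} {f : x ⟶ y}, Mem i f → Mem i (𝟙 y)
  mem_comp : ∀ {i : Ordinal.{0}} {x y z : D} {f : x ⟶ y} {g : y ⟶ z},
    Mem i f → Mem i g → Mem i (f ≫ g)
  mem_mono : ∀ {i j : Ordinal.{0}} {x y : D} {f : x ⟶ y}, i ≤ j → Mem i f → Mem j f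
  mem_div : ∀ {i : Ordinal.{0}} {x y z : D} {f : x ⟶ y} {g : y ⟶ z},
    Mem i (f ≫ g) → Mem i g → Mem i f
  mem_lim : ∀ {i : Ordinal.{0}}, Order.IsSuccLimit i → ∀ {x y : D} {f : x ⟶ y},
    Mem i f → ∃ j, j < i ∧ Mem j f
  mem_ex : ∀ {x y : D} (f : x ⟶ y), ∃ i, Mem i f
  small : ∀ i : Ordinal.{0}, Small.{0} {f : Σ x y : D, (x ⟶ y) // Mem i f.2.2}
  pb : ∀ {i : Ordinal.{0}} {x y b : D} {f : x ⟶ b} {g : y ⟶ b}, Mem i f → Mem i g →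
    ∃ (z : D) (p : z ⟶ x) (q : z ⟶ y), Mem i p ∧ Mem i q ∧ IsPB p q f g
  a : ℕ → D
  ι : ∀ n, a n ⟶ a (n + 1)
  ι_mem : ∀ n, Mem 0 (ι n)
  ι_not : ∀ n, ¬ Thru (𝟙 (a (n + 1))) (ι n)
  from_a0 : ∀ x : D, Nonempty (a 0 ⟶ x)

export TwBase (Mem a ι)

variable {D : Type 1} [Category.{1} D]

/-- A pseudogroup on `b` at stage `i`. -/
structure PG (D : Type 1) [Category.{1} D] [TwBase D] (i : Ordinal.{0}) (b : D) where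
  rel : ∀ {d : D}, (d ⟶ b) → (d ⟶ b) → Prop
  mem : ∀ {d : D} {s t : d ⟶ b}, rel s t → Mem i s ∧ Mem i t
  one : rel (𝟙 b) (𝟙 b)
  symm : ∀ {d : D} {s t : d ⟶ b}, rel s t → rel t s
  comp : ∀ {d d' e : D} {s t : d ⟶ b} {s' t' : d' ⟶ b} {g : e ⟶ d} {g' : e ⟶ d'},
    rel s t → rel s' t' → IsPB g g' t s' → Mem i g → Mem i g' → rel (g ≫ s) (g' ≫ t')
  up : ∀ {d e : D} {s t : d ⟶ b} {g : e ⟶ d}, Mem i s → Mem i t → Mem i g →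
    rel (g ≫ s) (g ≫ t) → rel s t

/-- A task over stage `i`. -/
structure Task (D : Type 1) [Category.{1} D] [TwBase D] (i : Ordinal.{0}) where
  n : ℕ
  c : D
  α : (a n : D) ⟶ c
  b : D
  E : PG D i b
  γ : (a (n + 1) : D) ⟶ b
  hα : Mem i α
  hγ : Mem i γ
  inv : ∀ {d : D} {s t : d ⟶ b}, E.rel s t →
    ∃ v : (a (n + 1) : D) ⟶ d, v ≫ s = γ ∧ v ≫ t = γ

/-- The data attached to a morphism `x` which is new at stage `i + 1`. -/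
structure ND (D : Type 1) [Category.{1} D] [TwBase D] (i : Ordinal.{0}) {d b : D} (x : d ⟶ b) where
  n : ℕ
  A : (a (n + 1) : D) ⟶ b
  P : D
  π : P ⟶ d
  π' : P ⟶ (a n : D)
  hA : Mem i A
  hπ : Mem i π
  hπ' : Mem i π'
  eq : π ≫ x = π' ≫ ι n ≫ A
  N0 : ∀ {e : D} (u : e ⟶ d), Mem i (u ≫ x) → Thru u π
  N1 : ∀ {e : D} (y : e ⟶ b), Mem i y →
    (Thru A y ∧ Thru x y) ∨ ∀ {f : D} (u : f ⟶ d) (v : f ⟶ e), u ≫ x = v ≫ y → Thru u π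
  N2 : ¬ Thru (𝟙 d) π

/-- The full interface of the tower. -/
class Tw (D : Type 1) [Category.{1} D] extends TwBase D where
  /-- new morphisms with old target -/
  nd : ∀ {i : Ordinal.{0}} {d b : D} (x : d ⟶ b), Mem i (𝟙 b) → Mem (i + 1) x → ¬ Mem i x →
    Nonempty (ND D i x)
  /-- the generator of a task -/
  gen : ∀ {i : Ordinal.{0}} (τ : Task D i), τ.c ⟶ τ.b
  gen_mem : ∀ {i : Ordinal.{0}} (τ : Task D i), Mem (i + 1) (gen τ)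
  gen_α : ∀ {i : Ordinal.{0}} (τ : Task D i), τ.α ≫ gen τ = ι τ.n ≫ τ.γ
  gen_inv : ∀ {i : Ordinal.{0}} (τ : Task D i) {d : D} {s t : d ⟶ τ.b}, τ.E.rel s t →
    ∃ v : τ.c ⟶ d, v ≫ s = gen τ ∧ v ≫ t = gen τ
  G1 : ∀ {i : Ordinal.{0}} (τ : Task D i) {B : D} (A : B ⟶ τ.b), τ.E.rel A A →
    ∀ (fA : τ.c ⟶ B) (γA : (a (τ.n + 1) : D) ⟶ B), fA ≫ A = gen τ → γA ≫ A = τ.γ →
    ∀ {b' e : D} (y : B ⟶ b') (y' : e ⟶ b'), Mem i y → Mem i y' →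
    ∀ {f : D} (t : f ⟶ τ.c) (s : f ⟶ e), t ≫ fA ≫ y = s ≫ y' →
      Thru t τ.α ∨ Thru (γA ≫ y) y'
  G3 : ∀ {i : Ordinal.{0}} (τ : Task D i) {d : D} (p : d ⟶ τ.b), Mem (i + 1) p →
    ∀ (N : ND D i p) (h : (a (τ.n + 1) : D) ⟶ d), h ≫ p = τ.γ →
    ∀ {f : D} (g : f ⟶ d) (s : f ⟶ τ.c), g ≫ p = s ≫ gen τ → Thru g N.π ∨ Thru s τ.α
  G4 : ∀ {i : Ordinal.{0}} (τ : Task D i) {d : D} (p : d ⟶ τ.b), Mem i p →
    (∃ (B : D) (A : B ⟶ τ.b) (u : B ⟶ d), Mem i u ∧ τ.E.rel A (u ≫ p)) ∨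
    ∀ {f : D} (g : f ⟶ d) (s : f ⟶ τ.c), g ≫ p = s ≫ gen τ → Thru s τ.α
  G5 : ∀ {i : Ordinal.{0}} (τ : Task D i) {B B' d : D} (A : B ⟶ τ.b) (A' : B' ⟶ τ.b),
    τ.E.rel A A → τ.E.rel A' A' →
    ∀ (fA : τ.c ⟶ B) (fA' : τ.c ⟶ B'), fA ≫ A = gen τ → fA' ≫ A' = gen τ →
    ∀ (u : B ⟶ d) (u' : B' ⟶ d), Mem i u → Mem i u' →
    ∀ {f : D} (s t : f ⟶ τ.c), s ≫ fA ≫ u = t ≫ fA' ≫ u' →
      Thru s τ.α ∨ Thru t τ.α ∨
        (s = t ∧ ∃ (K : D) (x : K ⟶ B) (y : K ⟶ B'), Mem i x ∧ Mem i y ∧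
          τ.E.rel (x ≫ A) (y ≫ A') ∧ x ≫ u = y ≫ u')
  G6 : ∀ {i : Ordinal.{0}} (τ : Task D i) {f : D} (s : f ⟶ τ.c), Mem i (s ≫ gen τ) → Thru s τ.α
  /-- free amalgams -/
  am : ∀ (i : Ordinal.{0}) {z x y : D} (l : z ⟶ x) (r : z ⟶ y), Mem i l → Mem i r → D
  jl : ∀ (i : Ordinal.{0}) {z x y : D} (l : z ⟶ x) (r : z ⟶ y) (hl : Mem i l) (hr : Mem i r),
    x ⟶ am i l r hl hr
  jr : ∀ (i : Ordinal.{0}) {z x y : D} (l : z ⟶ x) (r : z ⟶ y) (hl : Mem i l) (hr : Mem i r),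
    y ⟶ am i l r hl hr
  K0 : ∀ (i : Ordinal.{0}) {z x y : D} (l : z ⟶ x) (r : z ⟶ y) (hl : Mem i l) (hr : Mem i r),
    l ≫ jl i l r hl hr = r ≫ jr i l r hl hr
  K1 : ∀ (i : Ordinal.{0}) {z x y : D} (l : z ⟶ x) (r : z ⟶ y) (hl : Mem i l) (hr : Mem i r),
    IsPB l r (jl i l r hl hr) (jr i l r hl hr)
  K2 : ∀ (i : Ordinal.{0}) {z x y z' x' y' : D} (l : z ⟶ x) (r : z ⟶ y) (l' : z' ⟶ x')
    (r' : z' ⟶ y') (hl : Mem i l) (hr : Mem i r) (hl' : Mem i l') (hr' : Mem i r')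
    (p : x' ⟶ x) (m : z' ⟶ z) (q : y' ⟶ y), Mem i p → Mem i m → Mem i q →
    IsPB l' m p l → IsPB r' m q r →
    ∃ φ : am i l' r' hl' hr' ⟶ am i l r hl hr,
      IsPB (jl i l' r' hl' hr') p φ (jl i l r hl hr) ∧
      IsPB (jr i l' r' hl' hr') q φ (jr i l r hl hr)

end Vale.Agent.P323.Z
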