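import Mathlib

/-!
# Basic notions: factoring, weak pullbacks
All categories used in this project have all morphisms mono, so weak pullbacks are pullbacks.
-/

namespace Vale.Agent.P323.Z

open CategoryTheory

universe v u

variable {C : Type u} [Category.{v} C]

/-- `f` factors through `g` (same target). -/
def Thru {x y z : C} (f : x ⟶ z) (g : y ⟶ z) : Prop := ∃ h : x ⟶ y, h ≫ g = f

/-- (weak) pullback square: `p ≫ f = q ≫ g`, and every commuting pair factors. -/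
def IsPB {z x y b : C} (p : z ⟶ x) (q : z ⟶ y) (f : x ⟶ b) (g : y ⟶ b) : Prop :=
  p ≫ f = q ≫ g ∧
    ∀ {e : C} (u : e ⟶ x) (v : e ⟶ y), u ≫ f = v ≫ g → ∃ w : e ⟶ z, w ≫ p = u ∧ w ≫ q = v

theorem Thru.refl {x z : C} (f : x ⟶ z) : Thru f f := ⟨𝟙 _, Category.id_comp _⟩

theorem Thru.trans {x y z w : C} {f : x ⟶ w} {g : y ⟶ w} {h : z ⟶ w} :
    Thru f g → Thru g h → Thru f h := by
  rintro ⟨a, rfl⟩ ⟨b, rfl⟩
  exact ⟨a ≫ b, Category.assoc _ _ _⟩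

theorem Thru.comp_left {x y z w : C} {f : x ⟶ w} {g : y ⟶ w} (k : z ⟶ x) :
    Thru f g → Thru (k ≫ f) g := by
  rintro ⟨a, rfl⟩
  exact ⟨k ≫ a, Category.assoc _ _ _⟩

theorem Thru.comp_right {x y w w' : C} {f : x ⟶ w} {g : y ⟶ w} (k : w ⟶ w') :
    Thru f g → Thru (f ≫ k) (g ≫ k) := by
  rintro ⟨a, rfl⟩
  exact ⟨a, (Category.assoc _ _ _).symm⟩

theorem thru_comp_self {x y z : C} (k : x ⟶ y) (f : y ⟶ z) : Thru (k ≫ f) f := ⟨k, rfl⟩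

theorem IsPB.symm {z x y b : C} {p : z ⟶ x} {q : z ⟶ y} {f : x ⟶ b} {g : y ⟶ b}
    (h : IsPB p q f g) : IsPB q p g f :=
  ⟨h.1.symm, fun u v huv => by
    obtain ⟨w, hw₁, hw₂⟩ := h.2 v u huv.symm
    exact ⟨w, hw₂, hw₁⟩⟩

theorem IsPB.thru {z x y b : C} {p : z ⟶ x} {q : z ⟶ y} {f : x ⟶ b} {g : y ⟶ b}
    (h : IsPB p q f g) {e : C} (u : e ⟶ x) (v : e ⟶ y) (huv : u ≫ f = v ≫ g) : Thru u p := by
  obtain ⟨w, hw, -⟩ := h.2 u v huv
  exact ⟨w, hw⟩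

end Vale.Agent.P323.Z
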