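import Vale.Agent.P323.Z.Tower

/-!
# The coloured category `CObj D`
-/

namespace Vale.Agent.P323.Z

open CategoryTheory

variable {D : Type 1} [Category.{1} D]

/-- all morphisms with target `x` -/
abbrev Dn (x : D) : Type 1 := Σ z : D, (z ⟶ x)

/-- partial colourings of `Dn x` -/
abbrev Col (x : D) : Type 1 := Dn x → Option Bool

/-- composition with `u` on `Dn` -/
def Dn.post {x y : D} (u : x ⟶ y) (z : Dn x) : Dn y := ⟨z.1, z.2 ≫ u⟩

theorem Dn.post_injective [TwBase D] {x y : D} (u : x ⟶ y) : Function.Injective (Dn.post u) := by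
  rintro ⟨z, f⟩ ⟨z', f'⟩ h
  simp only [Dn.post, Sigma.mk.injEq] at h
  obtain ⟨rfl, h⟩ := h
  have := TwBase.mono u
  have h' := eq_of_heq h
  rw [cancel_mono] at h'
  rw [h']

@[simp] theorem Dn.post_id {x : D} (z : Dn x) : Dn.post (𝟙 x) z = z := by
  simp [Dn.post]

theorem Dn.post_comp {x y w : D} (u : x ⟶ y) (v : y ⟶ w) (z : Dn x) :
    Dn.post (u ≫ v) z = Dn.post v (Dn.post u z) := by
  simp [Dn.post]

/-- `q` extends `p`. -/
def Col.Le {x : D} (p q : Col x) : Prop := ∀ z c, p z = some c → q z = some c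

theorem Col.Le.refl {x : D} (p : Col x) : Col.Le p p := fun _ _ h => h

theorem Col.Le.trans {x : D} {p q r : Col x} (h : Col.Le p q) (h' : Col.Le q r) : Col.Le p r :=
  fun z c hz => h' z c (h z c hz)

/-- pull-back of a colouring: `(u^* q)(z) = q (z ≫ u)` -/
def Col.pull {x y : D} (u : x ⟶ y) (q : Col y) : Col x := fun z => q (Dn.post u z)

theorem Col.pull_id {x : D} (p : Col x) : Col.pull (𝟙 x) p = p := by
  funext z; simp [Col.pull]

theorem Col.pull_comp {x y w : D} (u : x ⟶ y) (v : y ⟶ w) (q : Col w) :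
    Col.pull (u ≫ v) q = Col.pull u (Col.pull v q) := by
  funext z; simp [Col.pull, Dn.post_comp]

theorem Col.Le.pull {x y : D} (u : x ⟶ y) {p q : Col y} (h : Col.Le p q) :
    Col.Le (Col.pull u p) (Col.pull u q) := fun z c hz => h _ c hz

/-- push-forward of a colouring: `(u_* p)(z ≫ u) = p z`, undefined elsewhere -/
noncomputable def Col.push {x y : D} (u : x ⟶ y) (p : Col x) : Col y := by
  classical
  exact fun w => if h : ∃ z, Dn.post u z = w then p h.choose else none

theorem Col.push_post [TwBase D] {x y : D} (u : x ⟶ y) (p : Col x) (z : Dn x) :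
    Col.push u p (Dn.post u z) = p z := by
  classical
  have h : ∃ z', Dn.post u z' = Dn.post u z := ⟨z, rfl⟩
  simp only [Col.push, dif_pos h]
  rw [Dn.post_injective u h.choose_spec]

theorem Col.push_eq_some [TwBase D] {x y : D} (u : x ⟶ y) (p : Col x) (w : Dn y) (c : Bool) :
    Col.push u p w = some c ↔ ∃ z, Dn.post u z = w ∧ p z = some c := by
  classical
  constructor
  · intro h
    by_cases h' : ∃ z, Dn.post u z = w
    · obtain ⟨z, rfl⟩ := h'
      rw [Col.push_post] at h
      exact ⟨z, rfl, h⟩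
    · rw [Col.push, dif_neg h'] at h
      cases h
  · rintro ⟨z, rfl, h⟩
    rwa [Col.push_post]

/-- compatible partial colourings -/
def Col.Compat {x : D} (p q : Col x) : Prop := ∀ z c c', p z = some c → q z = some c' → c = c'

/-- union, the left one has priority -/
def Col.union {x : D} (p q : Col x) : Col x := fun z => (p z).orElse fun _ => q z

/-- the domain is small -/
def Col.Sm {x : D} (p : Col x) : Prop := Small.{0} {z // p z ≠ none}

/-- Objects of the coloured category. -/
structure CObj (D : Type 1) [Category.{1} D] where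
  x : D
  p : Dn x → Option Bool
  sm : Small.{0} {z // p z ≠ none}

/-- Morphisms of the coloured category: morphisms of `D` which preserve the colours. -/
structure CHom (X Y : CObj D) where
  u : X.x ⟶ Y.x
  le : Col.Le X.p (Col.pull u Y.p)

theorem CHom.ext' {X Y : CObj D} {f g : CHom X Y} (h : f.u = g.u) : f = g := by
  cases f; cases g; cases h; rfl

instance : Category.{1} (CObj D) where
  Hom X Y := CHom X Y
  id X := ⟨𝟙 X.x, by rw [Col.pull_id]; exact Col.Le.refl _⟩
  comp f g := ⟨f.u ≫ g.u, by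
    rw [Col.pull_comp]
    exact f.le.trans (g.le.pull f.u)⟩
  id_comp f := CHom.ext' (Category.id_comp _)
  comp_id f := CHom.ext' (Category.comp_id _)
  assoc f g h := CHom.ext' (Category.assoc _ _ _)

@[simp] theorem comp_u {X Y Z : CObj D} (f : X ⟶ Y) (g : Y ⟶ Z) : (f ≫ g).u = f.u ≫ g.u := rfl
@[simp] theorem id_u (X : CObj D) : (CHom.u (𝟙 X : X ⟶ X)) = 𝟙 X.x := rfl

@[ext] theorem chom_ext {X Y : CObj D} {f g : X ⟶ Y} (h : f.u = g.u) : f = g := CHom.ext' h

/-- `f` is conservative: the colouring of `X` is the full pull-back of that of `Y`. -/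
def Cons {X Y : CObj D} (f : X ⟶ Y) : Prop := Col.pull f.u Y.p = X.p

end Vale.Agent.P323.Z
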