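import Vale.Agent.P323.F.H109Main
import Vale.Agent.P323.P11.Names
import Vale.Agent.P323.P11.A733
import Vale.Agent.P323.P11.B733
import Vale.Agent.P323.H309.PartC
import Vale.Agent.P323.H21.BB
import Vale.Agent.P323.H728.Final9
import Vale.Agent.P323.H530.Card
import Vale.Agent.P323.H341.NoAC
import Vale.Agent.P323.H709.ExistsTower

/-!
# A model of ZF in which the Partition Principle holds and the Axiom of Choice fails

Assembly of the construction: the tower of categories (`H709.exists_tower`), the coloured
category `CObj D`, the forced Partition Principle (`ppForced`), the forced failure of choice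
(`H341.noAC`), and the passage from forcing over a category to a countable model
(`F.exists_pp_not_ac`).
-/

namespace Vale.Agent.P323.Z

open CategoryTheory Vale.Agent.P323.P11

/-- The Partition Principle is forced over the coloured category of a tower. -/
theorem ppForced (D : Type 1) [Category.{1} D] [Tw D] [NameTheory (CObj D)] :
    PPForced (CObj D) :=
  ppForced_of (jsStmt D) (jsStmt' D) stmtA stmtB (H309.stmtC thm9Stmt)
    (H309.stmtC' (H530.cardStmt D)) H309.stmtX

/-- There is a model of ZF in which the Partition Principle holds and the Axiom of Choice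
fails. -/
theorem exists_model_pp_not_ac :
    ∃ (M : Type) (E : M → M → Prop), IsZFModel E ∧ PP E ∧ ¬ AC E := by
  obtain ⟨D, _, ⟨tw⟩⟩ := H709.exists_tower
  let _ := tw
  have X0 : CObj D := ⟨TwBase.a 0, fun _ => none, by
    have : IsEmpty {z : Dn (TwBase.a (D := D) 0) // (none : Option Bool) ≠ none} :=
      ⟨fun z => z.2 rfl⟩
    infer_instance⟩
  exact F.exists_pp_not_ac X0 (ppForced D) (H341.noAC D)

end Vale.Agent.P323.Z
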