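import Mathlib.ModelTheory.Semantics
import Mathlib.Data.Fin.VecNotation

/-!
# Models of ZF, the Partition Principle and the Axiom of Choice

`(M, E)` is a set `M` with a binary relation `E`; read `E x y` as `x ∈ y`.
This file defines what it means that `(M, E)` is a model of ZF (all axioms of first-order
Zermelo-Fraenkel set theory, with the full Separation and Replacement schemata, formulas with
parameters), that the Partition Principle holds in `(M, E)`, and that the Axiom of Choice holds
in `(M, E)`.
-/

namespace Vale.Agent.P323.Z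

open FirstOrder FirstOrder.Language

/-! ## First-order formulas of set theory -/

/-- The relation symbols of the language of set theory: one binary symbol. -/
inductive MemSymb : ℕ → Type
  | mem : MemSymb 2

/-- The first-order language of set theory: no function symbols, one binary relation symbol. -/
def LSet : Language.{0, 0} := ⟨fun _ => Empty, MemSymb⟩

/-- The interpretation of the relation symbols by a binary relation `E`. -/
def memRel {M : Type*} (E : M → M → Prop) : ∀ {n : ℕ}, MemSymb n → (Fin n → M) → Prop
  | _, .mem, v => E (v 0) (v 1)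

/-- `(M, E)` as a structure for the language of set theory. -/
@[reducible] def memStructure {M : Type*} (E : M → M → Prop) : LSet.Structure M where
  funMap := fun f _ => (f : Empty).elim
  RelMap := fun r v => memRel E r v

/-- `Sat E φ v`: the formula `φ(x₀, ..., x₍ₙ₋₁₎)` of the language of set theory is true in
`(M, E)` when each `xᵢ` denotes `v i`. -/
def Sat {M : Type*} (E : M → M → Prop) {n : ℕ} (φ : LSet.BoundedFormula Empty n)
    (v : Fin n → M) : Prop :=
  letI := memStructure E
  φ.Realize (Empty.elim : Empty → M) v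

/-! ## The axioms of ZF -/

/-- `(M, E)` is a model of Zermelo-Fraenkel set theory. In the two schemata `φ` ranges over all
first-order formulas of set theory and `v` over all finite lists of parameters. -/
structure IsZFModel {M : Type*} (E : M → M → Prop) : Prop where
  extensionality : ∀ x y, (∀ z, E z x ↔ E z y) → x = y
  foundation : ∀ x, (∃ y, E y x) → ∃ y, E y x ∧ ∀ z, E z x → ¬ E z y
  pairing : ∀ x y, ∃ p, ∀ z, E z p ↔ z = x ∨ z = y
  union : ∀ x, ∃ u, ∀ z, E z u ↔ ∃ y, E y x ∧ E z y
  powerSet : ∀ x, ∃ p, ∀ z, E z p ↔ ∀ w, E w z → E w x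
  infinity : ∃ w, (∃ e, E e w ∧ ∀ z, ¬ E z e) ∧
    ∀ x, E x w → ∃ s, E s w ∧ ∀ z, E z s ↔ E z x ∨ z = x
  separation : ∀ (n : ℕ) (φ : LSet.BoundedFormula Empty (n + 1)) (v : Fin n → M) (a : M),
    ∃ b, ∀ x, E x b ↔ E x a ∧ Sat E φ (Fin.snoc v x)
  replacement : ∀ (n : ℕ) (φ : LSet.BoundedFormula Empty (n + 2)) (v : Fin n → M) (a : M),
    (∀ x, E x a → ∃! y, Sat E φ (Fin.snoc (Fin.snoc v x : Fin (n + 1) → M) y)) →
    ∃ b, ∀ y, E y b ↔ ∃ x, E x a ∧ Sat E φ (Fin.snoc (Fin.snoc v x : Fin (n + 1) → M) y)

section

variable {M : Type*} (E : M → M → Prop)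

/-! ## Functions in `(M, E)` -/

/-- `p` is the unordered pair `{x, y}` of `(M, E)`. -/
def IsUPair (p x y : M) : Prop := ∀ z, E z p ↔ z = x ∨ z = y

/-- `p` is the (Kuratowski) ordered pair `(x, y) = {{x}, {x, y}}` of `(M, E)`. -/
def IsOPair (p x y : M) : Prop :=
  ∃ s t, IsUPair E s x x ∧ IsUPair E t x y ∧ IsUPair E p s t

/-- The ordered pair `(x, y)` is an element of `f`, in `(M, E)`. -/
def PairMem (x y f : M) : Prop := ∃ p, IsOPair E p x y ∧ E p f

/-- `f` is a function from `X` to `Y` in `(M, E)`: every element of `f` is an ordered pair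
`(x, y)` with `x ∈ X` and `y ∈ Y`, and for every `x ∈ X` there is exactly one `y` with
`(x, y) ∈ f`. -/
structure IsFunction (f X Y : M) : Prop where
  pairs : ∀ p, E p f → ∃ x y, E x X ∧ E y Y ∧ IsOPair E p x y
  value : ∀ x, E x X → ∃! y, PairMem E x y f

/-- `f` is a surjection from `X` onto `Y` in `(M, E)`. -/
def IsSurjection (f X Y : M) : Prop :=
  IsFunction E f X Y ∧ ∀ y, E y Y → ∃ x, E x X ∧ PairMem E x y f

/-- `f` is an injection from `X` into `Y` in `(M, E)`. -/
def IsInjection (f X Y : M) : Prop :=
  IsFunction E f X Y ∧ ∀ x x' y, PairMem E x y f → PairMem E x' y f → x = x'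

/-! ## The Partition Principle and the Axiom of Choice -/

/-- The Partition Principle holds in `(M, E)`: whenever there is a surjection from `X` onto `Y`
there is an injection from `Y` into `X`. -/
def PP : Prop := ∀ X Y, (∃ f, IsSurjection E f X Y) → ∃ j, IsInjection E j Y X

/-- The Axiom of Choice holds in `(M, E)`: every set `F` of nonempty sets has a choice function,
that is, a function `c` with domain `F` and `c(A) ∈ A` for all `A ∈ F`. -/
def AC : Prop := ∀ F, (∀ A, E A F → ∃ x, E x A) →
  ∃ c U, IsFunction E c F U ∧ ∀ A x, PairMem E A x c → E x A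

end

end Vale.Agent.P323.Z
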